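import Vale.Agent.P298.Stmt

namespace Vale.Agent.P298

/-- The germs of `f` and `g` at `0` are topologically right-equivalent: `g(φ(x)) = f(x)` for a
homeomorphism `φ` between open neighbourhoods of `0` with `φ(0) = 0`. -/
def TopRightEquiv {n : ℕ} (f g : (Fin n → ℂ) → ℂ) : Prop :=
  ∃ φ : OpenPartialHomeomorph (Fin n → ℂ) (Fin n → ℂ), 0 ∈ φ.source ∧ φ 0 = 0 ∧
    ∀ x ∈ φ.source, g (φ x) = f x

/-- The zero sets of `f` and `g` have the same embedded topological type at `0`: a homeomorphism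
`φ` between open neighbourhoods of `0` with `φ(0) = 0` maps the zeros of `f` onto the zeros
of `g`. -/
def SameEmbType {n : ℕ} (f g : (Fin n → ℂ) → ℂ) : Prop :=
  ∃ φ : OpenPartialHomeomorph (Fin n → ℂ) (Fin n → ℂ), 0 ∈ φ.source ∧ φ 0 = 0 ∧
    φ '' (φ.source ∩ {x | f x = 0}) = φ.target ∩ {x | g x = 0}

end Vale.Agent.P298
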